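import Vale.Agent.Lib.P237.Low

/-!
# P237: Petty's inequality is inherited by Cartesian products, in every dimension

(1) `R_{n+m}(K × L) = R_n(K) R_m(L)` for all convex bodies.
(2) If `K ⊆ ℝ^n` and `L ⊆ ℝ^m` satisfy Petty's inequality `R ≥ κ_{d-1}^d κ_d^{2-d}` in their
dimensions, then `K × L` satisfies it in dimension `n + m`, strictly if `n + m ≥ 3`.
(3) Hence every iterated Cartesian product of intervals and planar convex bodies, of dimension at
least three, satisfies Petty's inequality strictly.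

Proof.  `h(u) = |K + [0,u]| - |K|` is additive along rays (convexity), hence positively
homogeneous; slicing `(K × L) + [0,(u,w)]` gives `h_{K × L}(u,w) = |L| h_K(u) + |K| h_L(w)`, so
`Π(K × L) = |L| Π K × |K| Π L`.  The constants `p(d) = κ_{d-1}^d κ_d^{2-d}` satisfy
`p(d+2) p(d) / p(d+1)^2 = (ρ_{d+1}^2 / (ρ_d ρ_{d+2}))^d ≤ 1` with `ρ_d = κ_d / κ_{d-1} = ∫_0^π sin^d`,
which is log-convex; so `p(n+m) ≤ p(n) p(m)`.  In the plane `Π C` contains the rotated difference
body, of area at least `4 |C|` by the Brunn-Minkowski inequality.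
-/

namespace Vale.Agent.Results.P237.AClosedUnderProducts

open MeasureTheory _root_.P237

theorem result :
    (∀ (ι κ : Type) [Fintype ι] [Fintype κ] [Nonempty ι] [Nonempty κ]
      (K : Set (ι → ℝ)) (L : Set (κ → ℝ)),
      IsCompact K → Convex ℝ K → (interior K).Nonempty →
      IsCompact L → Convex ℝ L → (interior L).Nonempty →
        Rn (prod K L) = Rn K * Rn L ∧
        (petOf kapB (Fintype.card ι) ≤ Rn K → petOf kapB (Fintype.card κ) ≤ Rn L →
          petOf kapB (Fintype.card (ι ⊕ κ)) ≤ Rn (prod K L) ∧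
          (3 ≤ Fintype.card (ι ⊕ κ) → petOf kapB (Fintype.card (ι ⊕ κ)) < Rn (prod K L)))) ∧
    (∀ (ι : Type) [i : Fintype ι] (K : Set (ι → ℝ)), LowProd ι i K → 3 ≤ Fintype.card ι →
        petOf kapB (Fintype.card ι) < Rn K) := by
  refine ⟨?_, ?_⟩
  · intro ι κ _ _ _ _ K L hK hKc hKi hL hLc hLi
    have v1 := vol_pos_of_interior hK hKi
    have v2 := vol_pos_of_interior hL hLi
    exact ⟨Rn_prod hK hKc hL hLc v1 v2, fun p1 p2 => closure_le hK hKc hL hLc v1 v2 p1 p2⟩
  · intro ι i K h h3
    exact h.strict h3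

end Vale.Agent.Results.P237.AClosedUnderProducts
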