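import Vale.Agent.Lib.P237.Final

/-!
# P237: the normalised projection volume is multiplicative over Cartesian products;
Petty's inequality for cylinders in `ℝ^3` and for products of planar bodies in `ℝ^4`

`R_{n+m}(K × L) = R_n(K) R_m(L)` for all convex bodies `K ⊆ ℝ^n`, `L ⊆ ℝ^m`.  With `R_1 = 2` and
`R_2 ≥ 4` this gives `R_3(C × [a,b]) ≥ 8 > κ_2^3 / κ_3 = π^3 / (4π/3)` for every planar convex body
`C`, and `R_4(C × D) ≥ 16 > κ_3^4 / κ_4^2 = 1024 / 81` for planar convex bodies `C`, `D`.

Proof.  `h(u) = |K + [0,u]| - |K|` is additive along rays (convexity), hence positively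
homogeneous.  Slicing `(K × L) + [0,(u,w)]` over `ℝ^n` gives
`h_{K × L}(u,w) = |L| h_K(u) + |K| h_L(w)`, so `Π(K × L) = |L| Π K × |K| Π L`.
In the plane `Π C` contains the difference body of `C` rotated by a right angle, whose area is at
least `4 |C|` by the Brunn-Minkowski inequality.
-/

namespace Vale.Agent.Results.P237.ProductsAndCylinders

open MeasureTheory _root_.P237

theorem vol_pos_of_interior {ι : Type} [Fintype ι] {K : Set (ι → ℝ)} (hK : IsCompact K)
    (hi : (interior K).Nonempty) : 0 < vol K := by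
  unfold vol
  apply ENNReal.toReal_pos
  · exact (lt_of_lt_of_le (isOpen_interior.measure_pos volume hi)
      (measure_mono interior_subset)).ne'
  · exact hK.measure_lt_top.ne

theorem result :
    (∀ (ι κ : Type) [Fintype ι] [Fintype κ] [Nonempty ι] [Nonempty κ]
      (K : Set (ι → ℝ)) (L : Set (κ → ℝ)),
      IsCompact K → Convex ℝ K → (interior K).Nonempty →
      IsCompact L → Convex ℝ L → (interior L).Nonempty →
        Rn (prod K L) = Rn K * Rn L) ∧
    (∀ (C : Set (Fin 2 → ℝ)) (a b : ℝ),
      IsCompact C → Convex ℝ C → (interior C).Nonempty → a < b →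
        8 ≤ Rn (prod C (seg1 a b)) ∧
          Real.pi ^ 3 / (4 * Real.pi / 3) < Rn (prod C (seg1 a b))) ∧
    (∀ C D : Set (Fin 2 → ℝ),
      IsCompact C → Convex ℝ C → (interior C).Nonempty →
      IsCompact D → Convex ℝ D → (interior D).Nonempty →
        16 ≤ Rn (prod C D) ∧ (1024 / 81 : ℝ) < Rn (prod C D)) := by
  refine ⟨?_, ?_, ?_⟩
  · intro ι κ _ _ _ _ K L hK hKc hKi hL hLc hLi
    exact Rn_prod hK hKc hL hLc (vol_pos_of_interior hK hKi) (vol_pos_of_interior hL hLi)
  · intro C a b hC hc hi hab
    have h := cylinder hC hc (vol_pos_of_interior hC hi) hab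
    exact ⟨h, lt_of_lt_of_le petty_const_three h⟩
  · intro C D hC hc hi hD hd hj
    have h := planar_prod hC hc (vol_pos_of_interior hC hi) hD hd (vol_pos_of_interior hD hj)
    exact ⟨h, by linarith⟩

end Vale.Agent.Results.P237.ProductsAndCylinders
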